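import Vale.Agent.P141.Numeric

/-!
# The trilinear Hilbert transform is unbounded at an explicit range of Holder tuples
-/

namespace Vale.Agent.Results.P141.UnboundedRange

open MeasureTheory Vale.Agent.P141

/-- The trilinear Hilbert transform (slopes `1,2,3`) is unbounded at every Holder tuple with
`r < 7/15`, and at every Holder tuple satisfying one of three further linear inequalities (these
contain tuples with `r` arbitrarily close to `1/2`). -/
theorem result (p₁ p₂ p₃ r : ENNReal) (h : IsHolderTuple p₁ p₂ p₃ r)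
    (hr : r < 7 / 15 ∨
      2 < p₁⁻¹ + p₂⁻¹ + 7 / 10 * p₃⁻¹ ∨
      2 < p₁⁻¹ + 16 / 25 * p₂⁻¹ + p₃⁻¹ ∨
      2 < 7 / 10 * p₁⁻¹ + p₂⁻¹ + p₃⁻¹) :
    ¬ BoundedAt p₁ p₂ p₃ r := by
  intro hB
  obtain ⟨h1, h2, h3, hr0, hrt, hsum⟩ := id h
  have i1 : p₁⁻¹ < 1 := ENNReal.inv_lt_one.mpr h1
  have i2 : p₂⁻¹ < 1 := ENNReal.inv_lt_one.mpr h2
  have i3 : p₃⁻¹ < 1 := ENNReal.inv_lt_one.mpr h3
  have f1 : p₁⁻¹ ≠ ⊤ := (i1.trans ENNReal.one_lt_top).ne
  have f2 : p₂⁻¹ ≠ ⊤ := (i2.trans ENNReal.one_lt_top).ne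
  have f3 : p₃⁻¹ ≠ ⊤ := (i3.trans ENNReal.one_lt_top).ne
  have hρ : (r⁻¹).toReal = (p₁⁻¹).toReal + (p₂⁻¹).toReal + (p₃⁻¹).toReal := by
    rw [hsum, ENNReal.toReal_add (ENNReal.add_ne_top.mpr ⟨f1, f2⟩) f3, ENNReal.toReal_add f1 f2]
  have a1 : 0 ≤ (p₁⁻¹).toReal := ENNReal.toReal_nonneg
  have a2 : 0 ≤ (p₂⁻¹).toReal := ENNReal.toReal_nonneg
  have a3 : 0 ≤ (p₃⁻¹).toReal := ENNReal.toReal_nonneg
  -- translate the hypothesis to real numbers
  have hr' : 15 / 7 < (r⁻¹).toReal ∨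
      2 < (p₁⁻¹).toReal + (p₂⁻¹).toReal + 7 / 10 * (p₃⁻¹).toReal ∨
      2 < (p₁⁻¹).toReal + 16 / 25 * (p₂⁻¹).toReal + (p₃⁻¹).toReal ∨
      2 < 7 / 10 * (p₁⁻¹).toReal + (p₂⁻¹).toReal + (p₃⁻¹).toReal := by
    have c1 : (7 / 10 : ENNReal) ≠ ⊤ := ENNReal.div_ne_top (by norm_num) (by norm_num)
    have c2 : (16 / 25 : ENNReal) ≠ ⊤ := ENNReal.div_ne_top (by norm_num) (by norm_num)
    have c3 : (7 / 15 : ENNReal) ≠ ⊤ := ENNReal.div_ne_top (by norm_num) (by norm_num)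
    rcases hr with hr | hr | hr | hr
    · left
      have g1 := (ENNReal.toReal_lt_toReal hrt.ne c3).mpr hr
      have g2 : (7 / 15 : ENNReal).toReal = 7 / 15 := by simp
      rw [g2] at g1
      rw [ENNReal.toReal_inv]
      have g3 : 0 < r.toReal := ENNReal.toReal_pos hr0.ne' hrt.ne
      rw [lt_inv_comm₀ (by norm_num) g3]
      norm_num
      exact g1
    · right; left
      have g1 := (ENNReal.toReal_lt_toReal (by norm_num) (by
        exact ENNReal.add_ne_top.mpr ⟨ENNReal.add_ne_top.mpr ⟨f1, f2⟩,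
          ENNReal.mul_ne_top c1 f3⟩)).mpr hr
      rw [ENNReal.toReal_add (ENNReal.add_ne_top.mpr ⟨f1, f2⟩) (ENNReal.mul_ne_top c1 f3),
        ENNReal.toReal_add f1 f2, ENNReal.toReal_mul] at g1
      simpa using g1
    · right; right; left
      have g1 := (ENNReal.toReal_lt_toReal (by norm_num) (by
        exact ENNReal.add_ne_top.mpr ⟨ENNReal.add_ne_top.mpr ⟨f1, ENNReal.mul_ne_top c2 f2⟩,
          f3⟩)).mpr hr
      rw [ENNReal.toReal_add (ENNReal.add_ne_top.mpr ⟨f1, ENNReal.mul_ne_top c2 f2⟩) f3,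
        ENNReal.toReal_add f1 (ENNReal.mul_ne_top c2 f2), ENNReal.toReal_mul] at g1
      simpa using g1
    · right; right; right
      have g1 := (ENNReal.toReal_lt_toReal (by norm_num) (by
        exact ENNReal.add_ne_top.mpr ⟨ENNReal.add_ne_top.mpr ⟨ENNReal.mul_ne_top c1 f1, f2⟩,
          f3⟩)).mpr hr
      rw [ENNReal.toReal_add (ENNReal.add_ne_top.mpr ⟨ENNReal.mul_ne_top c1 f1, f2⟩) f3,
        ENNReal.toReal_add (ENNReal.mul_ne_top c1 f1) f2, ENNReal.toReal_mul] at g1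
      simpa using g1
  have hρ1 : 1 < (r⁻¹).toReal := by
    rcases hr' with hr' | hr' | hr' | hr'
    · linarith
    · rw [hρ]; linarith
    · rw [hρ]; linarith
    · rw [hρ]; linarith
  obtain ⟨n1, n2, n3, n4⟩ := necessary h hB hρ1
  rw [hρ] at n1 n2 n3 n4 hr'
  rcases hr' with hr' | hr' | hr' | hr'
  · linarith
  · linarith
  · linarith
  · linarith

end Vale.Agent.Results.P141.UnboundedRange
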